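import Vale.Agent.P097.H543.Kernel
import Vale.Agent.P097.H707.Tools

/-! # P097 / E-HARTOGS, part 2: the Hartogs step, local and periodic version -/

set_option linter.all false

open scoped ComplexConjugate Topology
open Filter Metric Set Complex

namespace Vale.Agent.P097.H543

open Vale.Agent.P097.TA

theorem JD_mono {f : ℂ → ℂ → ℂ} {S S' : Set (ℂ × ℂ)} (h : JD f S) (hs : S' ⊆ S) : JD f S' :=
  DifferentiableOn.mono h hs

/-- differentiability at a point from `JD` on an open set -/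
theorem JD_at {f : ℂ → ℂ → ℂ} {S : Set (ℂ × ℂ)} (h : JD f S) (hS : IsOpen S) {p : ℂ × ℂ}
    (hp : p ∈ S) : DifferentiableAt ℂ (fun p : ℂ × ℂ => f p.1 p.2) p :=
  DifferentiableOn.differentiableAt h (hS.mem_nhds hp)

/-- gluing of two jointly holomorphic functions -/
theorem JD_glue {f g : ℂ → ℂ → ℂ} {S N : Set (ℂ × ℂ)} (hS : IsOpen S) (hN : IsOpen N)
    (hf : JD f S) (hg : JD g N) (heq : ∀ p ∈ S, p ∈ N → g p.1 p.2 = f p.1 p.2) :
    ∃ F : ℂ → ℂ → ℂ, JD F (S ∪ N) ∧ (∀ p ∈ S, F p.1 p.2 = f p.1 p.2) ∧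
      (∀ p ∈ N, F p.1 p.2 = g p.1 p.2) := by
  classical
  refine ⟨fun t w => if (t, w) ∈ S then f t w else g t w, ?_, ?_, ?_⟩
  · intro p hp
    apply DifferentiableAt.differentiableWithinAt
    rcases hp with hp | hp
    · refine (JD_at hf hS hp).congr_of_eventuallyEq ?_
      filter_upwards [hS.mem_nhds hp] with q hq
      exact if_pos hq
    · refine (JD_at hg hN hp).congr_of_eventuallyEq ?_
      filter_upwards [hN.mem_nhds hp] with q hq
      by_cases hqS : q ∈ S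
      · have : (q.1, q.2) ∈ S := hqS
        simp only [this, if_true]
        exact (heq q hqS hq).symm
      · have : (q.1, q.2) ∉ S := hqS
        simp only [this, if_false]
  · intro p hp
    exact if_pos hp
  · intro p hp
    by_cases hqS : p ∈ S
    · have : (p.1, p.2) ∈ S := hqS
      simp only [this, if_true]
      exact (heq p hqS hp).symm
    · have : (p.1, p.2) ∉ S := hqS
      simp only [this, if_false]

/-- the sheared Cauchy integral -/
noncomputable def hart (f : ℂ → ℂ → ℂ) (φ : ℂ → ℂ) (w₁ : ℂ) (r : ℝ) (t w : ℂ) : ℂ :=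
  (2 * Real.pi * I)⁻¹ * ∮ ζ in C(w₁, r), (ζ - w)⁻¹ * f (t - φ w + φ ζ) ζ

theorem hart_JD {f : ℂ → ℂ → ℂ} {Ω : Set (ℂ × ℂ)} (hΩ : IsOpen Ω) (hf : JD f Ω)
    {w₁ : ℂ} {r : ℝ} (hr : 0 < r) {φ : ℂ → ℂ} {U : Set ℂ} (hU : IsOpen U)
    (hφ : DifferentiableOn ℂ φ U) (hU1 : closedBall w₁ r ⊆ U) {T : Set ℂ}
    (hbd : ∀ τ ∈ T, ∀ w ∈ sphere w₁ r, (τ + φ w, w) ∈ Ω) :
    JD (hart f φ w₁ r) {p | p.2 ∈ ball w₁ r ∧ p.1 - φ p.2 ∈ T} := by
  rintro ⟨t, w⟩ ⟨hw, ht⟩
  simp only at hw ht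
  apply DifferentiableAt.differentiableWithinAt
  set O₁ : Set ((ℂ × ℂ) × ℂ) := {q | (q.1.2 ∈ U ∧ q.2 ∈ U) ∧ q.2 ≠ q.1.2} with hO₁
  have hO₁o : IsOpen O₁ := by
    have h1 : IsOpen {q : (ℂ × ℂ) × ℂ | q.1.2 ∈ U} := hU.preimage (by fun_prop)
    have h2 : IsOpen {q : (ℂ × ℂ) × ℂ | q.2 ∈ U} := hU.preimage (by fun_prop)
    have h3 : IsOpen {q : (ℂ × ℂ) × ℂ | q.2 ≠ q.1.2} :=
      isOpen_ne_fun (by fun_prop) (by fun_prop)
    exact (h1.inter h2).inter h3
  have hd1 : DifferentiableOn ℂ (fun q : (ℂ × ℂ) × ℂ => φ q.1.2) O₁ :=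
    hφ.comp (by fun_prop) fun q hq => hq.1.1
  have hd2 : DifferentiableOn ℂ (fun q : (ℂ × ℂ) × ℂ => φ q.2) O₁ :=
    hφ.comp (by fun_prop) fun q hq => hq.1.2
  set m : (ℂ × ℂ) × ℂ → ℂ × ℂ := fun q => (q.1.1 - φ q.1.2 + φ q.2, q.2) with hm
  have hmd : DifferentiableOn ℂ m O₁ := by
    have h0 : DifferentiableOn ℂ (fun q : (ℂ × ℂ) × ℂ => q.1.1) O₁ := by fun_prop
    have h9 : DifferentiableOn ℂ (fun q : (ℂ × ℂ) × ℂ => q.2) O₁ := by fun_prop
    exact ((h0.sub hd1).add hd2).prodMk h9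
  have hO : IsOpen (O₁ ∩ m ⁻¹' Ω) := hmd.continuousOn.isOpen_inter_preimage hO₁o hΩ
  have hG : DifferentiableOn ℂ (fun q : (ℂ × ℂ) × ℂ =>
      (q.2 - q.1.2)⁻¹ * f (q.1.1 - φ q.1.2 + φ q.2) q.2) (O₁ ∩ m ⁻¹' Ω) := by
    apply DifferentiableOn.mul
    · apply DifferentiableOn.inv
      · fun_prop
      · intro q hq
        exact sub_ne_zero.2 hq.1.2
    · exact DifferentiableOn.comp hf (hmd.mono inter_subset_left) fun q hq => hq.2
  have key := differentiableAt_integral_param hO hG (γ := circleMap w₁ r)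
    (ψ := fun θ => deriv (circleMap w₁ r) θ) (α := 0) (β := 2 * Real.pi) (x₀ := (t, w))
    (continuous_circleMap w₁ r) (by
      have : deriv (circleMap w₁ r) = fun θ => circleMap 0 r θ * Complex.I := by
        ext θ; exact deriv_circleMap w₁ r θ
      rw [this]
      exact (continuous_circleMap 0 r).mul continuous_const) (by
      intro s _
      have hs : circleMap w₁ r s ∈ sphere w₁ r := circleMap_mem_sphere w₁ hr.le s
      refine ⟨⟨⟨hU1 (ball_subset_closedBall hw), hU1 (sphere_subset_closedBall hs)⟩, ?_⟩, ?_⟩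
      · simp only
        intro h
        rw [h] at hs
        rw [mem_sphere] at hs
        rw [mem_ball] at hw
        linarith
      · exact hbd _ ht _ hs)
  unfold hart
  simp only [circleIntegral, smul_eq_mul]
  exact key.const_mul _

theorem hart_eq {f : ℂ → ℂ → ℂ} {Ω : Set (ℂ × ℂ)} (hΩ : IsOpen Ω) (hf : JD f Ω)
    {w₁ : ℂ} {r : ℝ} (hr : 0 < r) {φ : ℂ → ℂ} {U : Set ℂ} (hU : IsOpen U)
    (hφ : DifferentiableOn ℂ φ U) (hU1 : closedBall w₁ r ⊆ U) {t w : ℂ} (hw : w ∈ ball w₁ r)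
    (hin : ∀ ζ ∈ closedBall w₁ r, (t - φ w + φ ζ, ζ) ∈ Ω) :
    hart f φ w₁ r t w = f t w := by
  have hd : ∀ ζ ∈ closedBall w₁ r, DifferentiableAt ℂ (fun ζ => f (t - φ w + φ ζ) ζ) ζ := by
    intro ζ hζ
    have h1 : DifferentiableAt ℂ (fun p : ℂ × ℂ => f p.1 p.2) (t - φ w + φ ζ, ζ) :=
      JD_at hf hΩ (hin ζ hζ)
    have h2 : DifferentiableAt ℂ (fun ζ : ℂ => (t - φ w + φ ζ, ζ)) ζ :=
      ((hφ.differentiableAt (hU.mem_nhds (hU1 hζ))).const_add _).prodMk differentiableAt_id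
    exact DifferentiableAt.comp ζ (f := fun ζ : ℂ => (t - φ w + φ ζ, ζ)) h1 h2
  have hc := Complex.circleIntegral_sub_inv_smul_of_differentiable_on_off_countable
    (f := fun ζ => f (t - φ w + φ ζ) ζ) countable_empty hw
    (fun ζ hζ => (hd ζ hζ).continuousAt.continuousWithinAt)
    (fun ζ hζ => hd ζ (ball_subset_closedBall hζ.1))
  unfold hart
  simp only [smul_eq_mul] at hc
  rw [hc]
  have h2 : (2 * Real.pi * I : ℂ) ≠ 0 := Complex.two_pi_I_ne_zero
  rw [inv_mul_cancel_left₀ h2]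
  congr 1
  ring

/-- **Hartogs figure, local form.**  The discs `w ↦ (τ + φ w, w)`, `τ ∈ T`, have their boundary in
the domain `Ω` of `f`, and are contained in `Ω` for `τ ∈ T₀`. -/
theorem hartogs_core {f : ℂ → ℂ → ℂ} {Ω : Set (ℂ × ℂ)} (hΩ : IsOpen Ω) (hf : JD f Ω)
    {w₁ : ℂ} {r : ℝ} (hr : 0 < r) {φ : ℂ → ℂ} {U : Set ℂ} (hU : IsOpen U)
    (hφ : DifferentiableOn ℂ φ U) (hU1 : closedBall w₁ r ⊆ U) {T T₀ : Set ℂ}
    (hT : IsOpen T)
    (hbd : ∀ τ ∈ T, ∀ w ∈ sphere w₁ r, (τ + φ w, w) ∈ Ω)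
    (hT₀ : IsOpen T₀) (hT₀T : T₀ ⊆ T) (hne : T₀.Nonempty)
    (hin : ∀ τ ∈ T₀, ∀ w ∈ closedBall w₁ r, (τ + φ w, w) ∈ Ω)
    (hconn : ∀ w ∈ ball w₁ r, IsPreconnected {τ | τ ∈ T ∧ (τ + φ w, w) ∈ Ω}) :
    JD (hart f φ w₁ r) {p | p.2 ∈ ball w₁ r ∧ p.1 - φ p.2 ∈ T} ∧
      ∀ p : ℂ × ℂ, p.2 ∈ ball w₁ r → p.1 - φ p.2 ∈ T → p ∈ Ω →
        hart f φ w₁ r p.1 p.2 = f p.1 p.2 := by
  have hJ := hart_JD hΩ hf hr hU hφ hU1 hbd
  refine ⟨hJ, ?_⟩
  rintro ⟨t, w⟩ hw ht hp
  simp only at hw ht ⊢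
  set S : Set ℂ := {τ | τ ∈ T ∧ (τ + φ w, w) ∈ Ω} with hS
  have hSo : IsOpen S := hT.inter (hΩ.preimage (by fun_prop))
  have hJo : IsOpen {p : ℂ × ℂ | p.2 ∈ ball w₁ r ∧ p.1 - φ p.2 ∈ T} := by
    have h1 : ContinuousOn (fun p : ℂ × ℂ => p.1 - φ p.2) {p | p.2 ∈ ball w₁ r} := by
      apply ContinuousOn.sub (by fun_prop)
      exact (hφ.continuousOn.mono ((ball_subset_closedBall).trans hU1)).comp (by fun_prop)
        fun p hp => hp
    exact h1.isOpen_inter_preimage (isOpen_ball.preimage continuous_snd) hT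
  have h1 : AnalyticOnNhd ℂ (fun τ => hart f φ w₁ r (τ + φ w) w) S := by
    apply DifferentiableOn.analyticOnNhd _ hSo
    intro τ hτ
    apply DifferentiableAt.differentiableWithinAt
    have := JD_at hJ hJo (p := (τ + φ w, w)) ⟨hw, by simpa using hτ.1⟩
    exact DifferentiableAt.comp τ (f := fun τ : ℂ => (τ + φ w, w)) this
      ((differentiableAt_id.add_const _).prodMk (differentiableAt_const _))
  have h2 : AnalyticOnNhd ℂ (fun τ => f (τ + φ w) w) S := by
    apply DifferentiableOn.analyticOnNhd _ hSo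
    intro τ hτ
    apply DifferentiableAt.differentiableWithinAt
    have := JD_at hf hΩ (p := (τ + φ w, w)) hτ.2
    exact DifferentiableAt.comp τ (f := fun τ : ℂ => (τ + φ w, w)) this
      ((differentiableAt_id.add_const _).prodMk (differentiableAt_const _))
  obtain ⟨τ₀, hτ₀⟩ := hne
  have hτ₀S : τ₀ ∈ S := ⟨hT₀T hτ₀, hin τ₀ hτ₀ w (ball_subset_closedBall hw)⟩
  have h3 : (fun τ => hart f φ w₁ r (τ + φ w) w) =ᶠ[𝓝 τ₀] fun τ => f (τ + φ w) w := by
    filter_upwards [hT₀.mem_nhds hτ₀] with τ hτ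
    apply hart_eq hΩ hf hr hU hφ hU1 hw
    intro ζ hζ
    have := hin τ hτ ζ hζ
    rwa [add_sub_cancel_right]
  have h4 := h1.eqOn_of_preconnected_of_eventuallyEq h2 (hconn w hw) hτ₀S h3
  have h5 : t - φ w ∈ S := ⟨ht, by rwa [sub_add_cancel]⟩
  have := h4 h5
  simpa using this

/-- open subsets of `{b < Im t} × ℂ` which are downward closed and translation invariant in `t` -/
structure Hypo (b : ℝ) (Ω : Set (ℂ × ℂ)) : Prop where
  op : IsOpen Ω
  low : ∀ t w : ℂ, (t, w) ∈ Ω → b < t.im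
  down : ∀ t s w : ℂ, (t, w) ∈ Ω → b < s.im → s.im ≤ t.im → (s, w) ∈ Ω

theorem isPreconnected_of_down {S : Set ℂ} (h : ∀ t s : ℂ, t ∈ S → s.im ≤ t.im → s ∈ S) :
    IsPreconnected S := by
  apply Convex.isPreconnected
  intro x hx y hy a b ha hb hab
  rcases le_total x.im y.im with hxy | hxy
  · apply h y _ hy
    simp only [add_im, smul_im, smul_eq_mul]
    have : a * x.im ≤ a * y.im := mul_le_mul_of_nonneg_left hxy ha
    have h3 : a * y.im + b * y.im = y.im := by rw [← add_mul, hab, one_mul]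
    linarith
  · apply h x _ hx
    simp only [add_im, smul_im, smul_eq_mul]
    have : b * y.im ≤ b * x.im := mul_le_mul_of_nonneg_left hxy hb
    have h3 : a * x.im + b * x.im = x.im := by rw [← add_mul, hab, one_mul]
    linarith

/-- the part of `f` holomorphic above the line `Im = y` -/
noncomputable def fpl (f : ℂ → ℂ → ℂ) (y : ℝ) (t w : ℂ) : ℂ :=
  ∫ x in (0 : ℝ)..1, f (x + y * I) w * ker (x + y * I - t)

theorem fpl_JD {f : ℂ → ℂ → ℂ} {b : ℝ} {Ω : Set (ℂ × ℂ)} (hΩ : Hypo b Ω) (hf : JD f Ω) (y : ℝ) :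
    JD (fpl f y) {p | ((y : ℂ) * I, p.2) ∈ Ω ∧ p.1.im ≠ y} := by
  rintro ⟨t, w⟩ ⟨hw, ht⟩
  simp only at hw ht
  apply DifferentiableAt.differentiableWithinAt
  have hby : b < y := by simpa using hΩ.low _ _ hw
  set O : Set ((ℂ × ℂ) × ℂ) := {q | ((q.2, q.1.2) ∈ Ω) ∧ ee (q.2 - q.1.1) ≠ 1} with hO
  have hOo : IsOpen O := by
    have h1 : IsOpen {q : (ℂ × ℂ) × ℂ | (q.2, q.1.2) ∈ Ω} := hΩ.op.preimage (by fun_prop)
    have h2 : IsOpen {q : (ℂ × ℂ) × ℂ | ee (q.2 - q.1.1) ≠ 1} := by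
      have : Continuous fun q : (ℂ × ℂ) × ℂ => ee (q.2 - q.1.1) :=
        differentiable_ee.continuous.comp (by fun_prop)
      exact isOpen_ne_fun this continuous_const
    exact h1.inter h2
  have hG : DifferentiableOn ℂ (fun q : (ℂ × ℂ) × ℂ => f q.2 q.1.2 * ker (q.2 - q.1.1)) O := by
    apply DifferentiableOn.mul
    · refine DifferentiableOn.comp (g := fun p : ℂ × ℂ => f p.1 p.2)
        (f := fun q : (ℂ × ℂ) × ℂ => (q.2, q.1.2)) hf (by fun_prop) fun q hq => hq.1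
    · refine DifferentiableOn.comp (g := ker) (f := fun q : (ℂ × ℂ) × ℂ => q.2 - q.1.1)
        differentiableOn_ker (by fun_prop) fun q hq => hq.2
  have key := differentiableAt_integral_param hOo hG (γ := fun x : ℝ => (x : ℂ) + y * I)
    (ψ := fun _ => 1) (α := 0) (β := 1) (x₀ := (t, w)) (by fun_prop) (by fun_prop) (by
      intro s _
      refine ⟨?_, ?_⟩
      · exact hΩ.down _ _ _ hw (by simpa using hby) (by simp)
      · apply ee_ne_one_of_im
        simp only [sub_im, add_im, ofReal_im, mul_im, ofReal_re, I_im, mul_one, I_re, mul_zero,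
          add_zero, zero_add]
        exact sub_ne_zero.2 (Ne.symm ht))
  simp only [one_mul] at key
  exact key

/-- Laurent splitting of `f` -/
theorem fpl_sub {f : ℂ → ℂ → ℂ} {b : ℝ} {Ω : Set (ℂ × ℂ)} (hΩ : Hypo b Ω) (hf : JD f Ω)
    (hper : Per f Ω) {y₁ y₂ : ℝ} {t w : ℂ} (hb : b < y₁) (h1 : y₁ < t.im) (h2 : t.im < y₂)
    (hw : ((y₂ : ℂ) * I, w) ∈ Ω) : f t w = fpl f y₁ t w - fpl f y₂ t w := by
  have hmem : ∀ z : ℂ, y₁ ≤ z.im → z.im ≤ y₂ → (z, w) ∈ Ω := by
    intro z hz1 hz2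
    exact hΩ.down _ _ _ hw (by linarith) (by simpa using hz2)
  have := cauchy_strip (g := fun t => f t w) (y₁ := y₁) (y₂ := y₂) (t := t) (by
      intro z hz
      apply DifferentiableAt.differentiableWithinAt
      have := JD_at hf hΩ.op (hmem z hz.1 hz.2)
      exact DifferentiableAt.comp z (f := fun z : ℂ => (z, w)) this
        (differentiableAt_id.prodMk (differentiableAt_const _)))
    (fun z hz1 hz2 => hper z w (hmem z hz1 hz2)) h1 h2 0
  simpa [fpl] using this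

/-- the part of `f` holomorphic below -/
noncomputable def fmi (f : ℂ → ℂ → ℂ) (y a : ℝ) (t w : ℂ) : ℂ :=
  if t.im < a then -fpl f a t w else f t w - fpl f y t w

theorem fmi_eq {f : ℂ → ℂ → ℂ} {b : ℝ} {Ω : Set (ℂ × ℂ)} (hΩ : Hypo b Ω) (hf : JD f Ω)
    (hper : Per f Ω) {y a : ℝ} {t w : ℂ} (hb : b < y) (h1 : y < t.im)
    (hw : ((a : ℂ) * I, w) ∈ Ω) : fmi f y a t w = f t w - fpl f y t w := by
  unfold fmi
  split_ifs with h
  · rw [fpl_sub hΩ hf hper hb h1 h hw]; ring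
  · rfl

theorem isOpen_slice {Ω : Set (ℂ × ℂ)} (hΩ : IsOpen Ω) (s : ℂ) :
    IsOpen {p : ℂ × ℂ | (s, p.2) ∈ Ω} := hΩ.preimage (by fun_prop)

theorem fmi_JD {f : ℂ → ℂ → ℂ} {b : ℝ} {Ω : Set (ℂ × ℂ)} (hΩ : Hypo b Ω) (hf : JD f Ω)
    (hper : Per f Ω) {y a : ℝ} (hb : b < y) (hya : y < a) :
    JD (fmi f y a) {p | ((a : ℂ) * I, p.2) ∈ Ω ∧ (p.1.im < a ∨ p ∈ Ω)} := by
  rintro ⟨t, w⟩ ⟨hw, ht⟩
  simp only at hw ht
  apply DifferentiableAt.differentiableWithinAt
  by_cases hta : t.im < a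
  · have hN : {p : ℂ × ℂ | p.1.im < a} ∈ 𝓝 (t, w) :=
      (isOpen_lt (Complex.continuous_im.comp continuous_fst) continuous_const).mem_nhds hta
    have hd : DifferentiableAt ℂ (fun p : ℂ × ℂ => fpl f a p.1 p.2) (t, w) := by
      refine JD_at (S := {p | ((a : ℂ) * I, p.2) ∈ Ω ∧ p.1.im < a})
        (JD_mono (fpl_JD hΩ hf a) fun p hp => ⟨hp.1, hp.2.ne⟩) ?_ ⟨hw, hta⟩
      exact (isOpen_slice hΩ.op _).inter
        (isOpen_lt (Complex.continuous_im.comp continuous_fst) continuous_const)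
    refine hd.neg.congr_of_eventuallyEq ?_
    filter_upwards [hN] with p hp
    simp only [fmi, Pi.neg_apply]
    exact if_pos hp
  · have htΩ : (t, w) ∈ Ω := ht.resolve_left hta
    have hyt : y < t.im := by linarith
    have hN : {p : ℂ × ℂ | ((a : ℂ) * I, p.2) ∈ Ω ∧ y < p.1.im} ∈ 𝓝 (t, w) :=
      ((isOpen_slice hΩ.op _).inter (isOpen_lt continuous_const
        (Complex.continuous_im.comp continuous_fst))).mem_nhds ⟨hw, hyt⟩
    have hyw : ((y : ℂ) * I, w) ∈ Ω := hΩ.down _ _ _ hw (by simpa using hb) (by simpa using hya.le)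
    have hd : DifferentiableAt ℂ (fun p : ℂ × ℂ => fpl f y p.1 p.2) (t, w) := by
      refine JD_at (S := {p | ((y : ℂ) * I, p.2) ∈ Ω ∧ y < p.1.im})
        (JD_mono (fpl_JD hΩ hf y) fun p hp => ⟨hp.1, hp.2.ne'⟩) ?_ ⟨hyw, hyt⟩
      exact (isOpen_slice hΩ.op _).inter
        (isOpen_lt continuous_const (Complex.continuous_im.comp continuous_fst))
    refine ((JD_at hf hΩ.op htΩ).sub hd).congr_of_eventuallyEq ?_
    filter_upwards [hN] with p hp
    exact fmi_eq hΩ hf hper hb hp.2 hp.1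

/-- **Hartogs step, periodic form.** `f` is jointly holomorphic and `1`-periodic in `t` on the
hypograph-like set `Ω`; `Re GG` lies in `Ω` over the circle `|w - w₁| = r`; then `f` extends
holomorphically to `{|w - w₁| < r, b < Im t < Re (GG w)}`. -/
theorem hartogs_periodic {f : ℂ → ℂ → ℂ} {b : ℝ} {Ω : Set (ℂ × ℂ)} (hΩ : Hypo b Ω) (hf : JD f Ω)
    (hper : Per f Ω) {w₁ : ℂ} {r : ℝ} (hr : 0 < r) {a : ℝ} (hab : b < a)
    (hbase : ∀ w ∈ closedBall w₁ r, ((a : ℂ) * I, w) ∈ Ω) {GG : ℂ → ℂ} {U : Set ℂ}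
    (hU : IsOpen U) (hU1 : closedBall w₁ r ⊆ U) (hGG : DifferentiableOn ℂ GG U)
    (hlt : ∀ w ∈ sphere w₁ r, b < (GG w).re → (((GG w).re : ℂ) * I, w) ∈ Ω) :
    ∃ F : ℂ → ℂ → ℂ,
      JD F (Ω ∪ {p | p.2 ∈ ball w₁ r ∧ b < p.1.im ∧ p.1.im < (GG p.2).re}) ∧
      Per F (Ω ∪ {p | p.2 ∈ ball w₁ r ∧ b < p.1.im ∧ p.1.im < (GG p.2).re}) ∧
      ∀ p ∈ Ω, F p.1 p.2 = f p.1 p.2 := by
  set y : ℝ := (b + a) / 2 with hy
  have hby : b < y := by rw [hy]; linarith
  have hya : y < a := by rw [hy]; linarith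
  set φ : ℂ → ℂ := fun w => I * GG w with hφ
  have hφim : ∀ w, (φ w).im = (GG w).re := by intro w; simp [hφ]
  have hφd : DifferentiableOn ℂ φ U := hGG.const_mul I
  set Ω' : Set (ℂ × ℂ) := {p | ((a : ℂ) * I, p.2) ∈ Ω ∧ (p.1.im < a ∨ p ∈ Ω)} with hΩ'
  have hΩ'o : IsOpen Ω' := (isOpen_slice hΩ.op _).inter
    ((isOpen_lt (Complex.continuous_im.comp continuous_fst) continuous_const).union hΩ.op)
  have hf' : JD (fmi f y a) Ω' := fmi_JD hΩ hf hper hby hya
  have hcomp : IsCompact (closedBall w₁ r) := isCompact_closedBall _ _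
  obtain ⟨N, hN⟩ := hcomp.exists_bound_of_continuousOn (hGG.continuousOn.mono hU1)
  have hcore := hartogs_core hΩ'o hf' hr hU hφd hU1 (T := {τ | τ.im < 0})
    (T₀ := {τ | τ.im < -(|N| + |a|)}) (isOpen_lt Complex.continuous_im continuous_const) (by
      intro τ hτ w hw
      refine ⟨hbase w (sphere_subset_closedBall hw), ?_⟩
      have him : (τ + φ w).im = τ.im + (GG w).re := by rw [add_im, hφim]
      have hτ' : τ.im < 0 := hτ
      simp only
      by_cases h1 : (τ + φ w).im < a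
      · left; exact h1
      · right
        have h2 : b < (GG w).re := by rw [him] at h1; push Not at h1; linarith
        refine hΩ.down _ _ _ (hlt w hw h2) ?_ ?_
        · push Not at h1; linarith
        · rw [him]; simp only [mul_im, ofReal_re, I_im, mul_one, ofReal_im, I_re, mul_zero, add_zero]
          linarith)
    (isOpen_lt Complex.continuous_im continuous_const)
    (by
      intro τ hτ
      have hτ' : τ.im < -(|N| + |a|) := hτ
      have := abs_nonneg N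
      have := abs_nonneg a
      show τ.im < 0
      linarith)
    ⟨((-(|N| + |a|) - 1 : ℝ) : ℂ) * I, by
      show (((-(|N| + |a|) - 1 : ℝ) : ℂ) * I).im < -(|N| + |a|)
      rw [mul_im, ofReal_re, I_im, ofReal_im, I_re]
      linarith⟩
    (by
      intro τ hτ w hw
      refine ⟨hbase w hw, Or.inl ?_⟩
      have hτ' : τ.im < -(|N| + |a|) := hτ
      have him : (τ + φ w).im = τ.im + (GG w).re := by rw [add_im, hφim]
      simp only
      rw [him]
      have h1 := hN w hw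
      have h2 := Complex.abs_re_le_norm (GG w)
      have h3 := le_abs_self (GG w).re
      have h4 := le_abs_self N
      have h5 := neg_abs_le a
      linarith)
    (by
      intro w hw
      apply isPreconnected_of_down
      rintro t s ⟨ht, ht2⟩ hst
      have ht' : t.im < 0 := ht
      refine ⟨show s.im < 0 by linarith, hbase w (ball_subset_closedBall hw), ?_⟩
      have hle : (s + φ w).im ≤ (t + φ w).im := by rw [add_im, add_im]; linarith
      simp only
      rcases ht2.2 with h | h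
      · left; simp only at h; linarith
      · by_cases h1 : (s + φ w).im < a
        · left; exact h1
        · right
          push Not at h1
          exact hΩ.down _ _ _ h (by linarith) hle)
  obtain ⟨hJ, hE⟩ := hcore
  -- the new domain
  set N₁ : Set (ℂ × ℂ) := {p | (p.2 ∈ ball w₁ r ∧ p.1.im < (GG p.2).re) ∧ y < p.1.im} with hN₁
  have hUb : ContinuousOn (fun p : ℂ × ℂ => p.1.im - (GG p.2).re) {p | p.2 ∈ ball w₁ r} := by
    apply ContinuousOn.sub (Complex.continuous_im.comp continuous_fst).continuousOn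
    exact Complex.continuous_re.comp_continuousOn
      ((hGG.continuousOn.mono (ball_subset_closedBall.trans hU1)).comp (by fun_prop) fun p hp => hp)
  have hN₀o : IsOpen {p : ℂ × ℂ | p.2 ∈ ball w₁ r ∧ p.1.im < (GG p.2).re} := by
    have := hUb.isOpen_inter_preimage (isOpen_ball.preimage continuous_snd)
      (isOpen_Iio (a := (0 : ℝ)))
    convert this using 1
    ext p
    simp only [mem_setOf_eq, mem_inter_iff, mem_preimage, mem_Iio, sub_neg]
  have hN₁o : IsOpen N₁ :=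
    hN₀o.inter (isOpen_lt continuous_const (Complex.continuous_im.comp continuous_fst))
  have hyw : ∀ w ∈ ball w₁ r, ((y : ℂ) * I, w) ∈ Ω := fun w hw =>
    hΩ.down _ _ _ (hbase w (ball_subset_closedBall hw)) (by simpa using hby) (by simpa using hya.le)
  have hF₁ : JD (fun t w => hart (fmi f y a) φ w₁ r t w + fpl f y t w) N₁ := by
    have e1 : JD (hart (fmi f y a) φ w₁ r) N₁ := by
      refine JD_mono hJ ?_
      rintro ⟨t, w⟩ ⟨⟨h1, h2⟩, h3⟩
      refine ⟨h1, ?_⟩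
      show (t - φ w).im < 0
      rw [sub_im, hφim]
      simp only at h2
      linarith
    have e2 : JD (fpl f y) N₁ := by
      refine JD_mono (fpl_JD hΩ hf y) ?_
      rintro ⟨t, w⟩ ⟨⟨h1, h2⟩, h3⟩
      exact ⟨hyw w h1, h3.ne'⟩
    exact DifferentiableOn.add e1 e2
  have hagree : ∀ p ∈ Ω, p ∈ N₁ →
      hart (fmi f y a) φ w₁ r p.1 p.2 + fpl f y p.1 p.2 = f p.1 p.2 := by
    rintro ⟨t, w⟩ hp ⟨⟨h1, h2⟩, h3⟩
    simp only at h1 h2 h3 ⊢
    have hb' := hbase w (ball_subset_closedBall h1)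
    rw [hE (t, w) h1 (by show (t - φ w).im < 0; rw [sub_im, hφim]; linarith) ⟨hb', Or.inr hp⟩]
    simp only
    rw [fmi_eq hΩ hf hper hby h3 hb']
    ring
  obtain ⟨F, hFJ, hFΩ, hFN⟩ := JD_glue hΩ.op hN₁o hf hF₁ hagree
  have hset : Ω ∪ {p | p.2 ∈ ball w₁ r ∧ b < p.1.im ∧ p.1.im < (GG p.2).re} ⊆ Ω ∪ N₁ := by
    rintro ⟨t, w⟩ (h | ⟨h1, h2, h3⟩)
    · exact Or.inl h
    · simp only at h1 h2 h3
      by_cases hyt : y < t.im
      · exact Or.inr ⟨⟨h1, h3⟩, hyt⟩
      · left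
        push Not at hyt
        exact hΩ.down _ _ _ (hyw w h1) h2 (by simpa using hyt)
  have hF := JD_mono hFJ hset
  refine ⟨F, hF, ?_, hFΩ⟩
  -- periodicity
  intro t w hp
  have hp1 : ∀ t w, (t, w) ∈ Ω → F (t + 1) w = F t w := by
    intro t w h
    have h1 : (t + 1, w) ∈ Ω := hΩ.down _ _ _ h (by simpa using hΩ.low _ _ h) (by simp)
    rw [hFΩ _ h1, hFΩ _ h]
    exact hper t w h
  rcases hp with hp | ⟨h1, h2, h3⟩
  · exact hp1 t w hp
  · simp only at h1 h2 h3
    -- identity theorem on the slice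
    set S : Set ℂ := {s | b < s.im ∧ s.im < (GG w).re} with hS
    have hSo : IsOpen S := (isOpen_lt continuous_const Complex.continuous_im).inter
      (isOpen_lt Complex.continuous_im continuous_const)
    have hSc : IsPreconnected S := by
      apply Convex.isPreconnected
      have c1 : Convex ℝ {s : ℂ | b < s.im} := by
        have := (convex_Ioi (𝕜 := ℝ) b).is_linear_preimage (f := Complex.imLm)
          Complex.imLm.isLinear
        exact this
      have c2 : Convex ℝ {s : ℂ | s.im < (GG w).re} := by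
        have := (convex_Iio (𝕜 := ℝ) (GG w).re).is_linear_preimage (f := Complex.imLm)
          Complex.imLm.isLinear
        exact this
      exact c1.inter c2
    have hmemS : ∀ s ∈ S, (s, w) ∈ Ω ∪ {p | p.2 ∈ ball w₁ r ∧ b < p.1.im ∧ p.1.im < (GG p.2).re} :=
      fun s hs => Or.inr ⟨h1, hs.1, hs.2⟩
    have hdomo : IsOpen (Ω ∪ N₁) := hΩ.op.union hN₁o
    have hFs : ∀ s ∈ S, DifferentiableAt ℂ (fun s => F s w) s := by
      intro s hs
      have := JD_at hFJ hdomo (hset (hmemS s hs))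
      exact DifferentiableAt.comp s (f := fun s : ℂ => (s, w)) this
        (differentiableAt_id.prodMk (differentiableAt_const _))
    have hA1 : AnalyticOnNhd ℂ (fun s => F s w) S :=
      DifferentiableOn.analyticOnNhd (fun s hs => (hFs s hs).differentiableWithinAt) hSo
    have hA2 : AnalyticOnNhd ℂ (fun s => F (s + 1) w) S := by
      apply DifferentiableOn.analyticOnNhd _ hSo
      intro s hs
      apply DifferentiableAt.differentiableWithinAt
      have hs1 : s + 1 ∈ S := by simpa [hS] using hs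
      exact DifferentiableAt.comp s (f := fun s : ℂ => s + 1) (hFs _ hs1)
        (differentiableAt_id.add_const _)
    -- a point of `S` in `Ω`
    have hGb : b < (GG w).re := h2.trans h3
    obtain ⟨y₀, hy₀⟩ : ∃ y₀, b < y₀ ∧ y₀ < min a (GG w).re := exists_between (lt_min hab hGb)
    have hz : (y₀ : ℂ) * I ∈ S := by
      simp only [hS, mem_setOf_eq, mul_im, ofReal_re, I_im, mul_one, ofReal_im, I_re, mul_zero,
        add_zero]
      exact ⟨hy₀.1, hy₀.2.trans_le (min_le_right _ _)⟩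
    have hloc : (fun s => F (s + 1) w) =ᶠ[𝓝 ((y₀ : ℂ) * I)] fun s => F s w := by
      have : {s : ℂ | b < s.im ∧ s.im < a} ∈ 𝓝 ((y₀ : ℂ) * I) := by
        refine ((isOpen_lt continuous_const Complex.continuous_im).inter
          (isOpen_lt Complex.continuous_im continuous_const)).mem_nhds ?_
        simp only [mem_inter_iff, mem_setOf_eq, mul_im, ofReal_re, I_im, mul_one, ofReal_im, I_re,
          mul_zero, add_zero]
        exact ⟨hy₀.1, hy₀.2.trans_le (min_le_left _ _)⟩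
      filter_upwards [this] with s hs
      apply hp1
      exact hΩ.down _ _ _ (hbase w (ball_subset_closedBall h1)) hs.1 (by simpa using hs.2.le)
    have := hA2.eqOn_of_preconnected_of_eventuallyEq hA1 hSc hz hloc
    exact this ⟨h2, h3⟩

end Vale.Agent.P097.H543
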