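import Vale.Agent.P268.Hol

/-! # P097 / E-HARTOGS, part 0: holomorphic dependence of path integrals on parameters -/

set_option linter.all false

open scoped ComplexConjugate Topology
open Filter Metric Set

namespace Vale.Agent.P097.H543

open Vale.Agent.P268

variable {E : Type*} [NormedAddCommGroup E] [NormedSpace ℂ E] [FiniteDimensional ℂ E]

/-- Holomorphic dependence on parameters of integrals along a path. -/
theorem differentiableAt_integral_param {G : E × ℂ → ℂ} {O : Set (E × ℂ)} (hO : IsOpen O)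
    (hG : DifferentiableOn ℂ G O) {γ ψ : ℝ → ℂ} (hγ : Continuous γ) (hψ : Continuous ψ)
    {α β : ℝ} {x₀ : E} (h0 : ∀ s ∈ uIcc α β, (x₀, γ s) ∈ O) :
    DifferentiableAt ℂ (fun x => ∫ s in α..β, ψ s * G (x, γ s)) x₀ := by
  have : ProperSpace E := FiniteDimensional.proper ℂ E
  have hK : IsCompact (γ '' uIcc α β) := isCompact_uIcc.image hγ
  obtain ⟨U, V, hU, hV, hxU, hKV, hUV⟩ := generalized_tube_lemma (isCompact_singleton (x := x₀)) hK hO
    (by
      rintro ⟨x, z⟩ ⟨hx, hz⟩
      rw [mem_singleton_iff] at hx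
      obtain ⟨s, hs, rfl⟩ := hz
      simp only at hx
      subst hx
      exact h0 s hs)
  have hx₀ : x₀ ∈ U := hxU rfl
  have hGd : DifferentiableOn ℂ G (U ×ˢ V) := hG.mono hUV
  have hUVo : IsOpen (U ×ˢ V) := hU.prod hV
  obtain ⟨r, hr, hrU⟩ : ∃ r > 0, closedBall x₀ (2 * r) ⊆ U := by
    obtain ⟨r, hr, h⟩ := Metric.isOpen_iff.1 hU x₀ hx₀
    exact ⟨r / 4, by positivity, (closedBall_subset_ball (by linarith)).trans h⟩
  have hcomp : IsCompact (closedBall x₀ (2 * r) ×ˢ (γ '' uIcc α β)) :=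
    (isCompact_closedBall _ _).prod hK
  have hsub : closedBall x₀ (2 * r) ×ˢ (γ '' uIcc α β) ⊆ U ×ˢ V := prod_mono hrU hKV
  obtain ⟨C, hC⟩ := hcomp.exists_bound_of_continuousOn (hGd.continuousOn.mono hsub)
  obtain ⟨Cψ, hCψ⟩ := (isCompact_uIcc (a := α) (b := β)).exists_bound_of_continuousOn
    hψ.continuousOn
  have hdG : ∀ x ∈ ball x₀ (2 * r), ∀ t ∈ γ '' uIcc α β,
      HasFDerivAt (fun x => G (x, t))
        ((fderiv ℂ G (x, t)).comp (ContinuousLinearMap.inl ℂ E ℂ)) x := by
    intro x hx t ht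
    have h1 : DifferentiableAt ℂ G (x, t) :=
      hGd.differentiableAt (hUVo.mem_nhds ⟨hrU (ball_subset_closedBall hx), hKV ht⟩)
    have h2 : HasFDerivAt (fun x : E => (x, t)) (ContinuousLinearMap.inl ℂ E ℂ) x :=
      hasFDerivAt_prodMk_left x t
    exact h1.hasFDerivAt.comp x h2
  have hbound : ∀ x ∈ ball x₀ r, ∀ t ∈ γ '' uIcc α β,
      ‖(fderiv ℂ G (x, t)).comp (ContinuousLinearMap.inl ℂ E ℂ)‖ ≤ C / r := by
    intro x hx t ht
    have hxb : ball x r ⊆ ball x₀ (2 * r) := by
      intro y hy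
      rw [mem_ball] at hx hy ⊢
      calc dist y x₀ ≤ dist y x + dist x x₀ := dist_triangle _ _ _
        _ < 2 * r := by linarith
    have hx2 : x ∈ ball x₀ (2 * r) := hxb (mem_ball_self hr)
    rw [← (hdG x hx2 t ht).fderiv]
    apply norm_fderiv_le_of_ball hr
    · intro y hy
      exact (hdG y (hxb hy) t ht).differentiableAt.differentiableWithinAt
    · intro y hy
      exact hC (y, t) ⟨ball_subset_closedBall (hxb hy), ht⟩
  have hcontD : ContinuousOn (fderiv ℂ G) (U ×ˢ V) :=
    continuousOn_fderiv_of_differentiableOn hUVo hGd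
  have hΙ : ∀ s ∈ uIoc α β, s ∈ uIcc α β := fun s hs => uIoc_subset_uIcc hs
  have key := hasFDerivAt_integral_of_dominated_of_fderiv_le
    (μ := MeasureTheory.volume.restrict (Set.uIoc α β))
    (F := fun (x : E) (s : ℝ) => ψ s * G (x, γ s))
    (F' := fun (x : E) (s : ℝ) => ψ s •
      ((fderiv ℂ G (x, γ s)).comp (ContinuousLinearMap.inl ℂ E ℂ)))
    (x₀ := x₀) (s := ball x₀ r) (bound := fun _ => Cψ * (C / r)) (𝕜 := ℂ)
    (ball_mem_nhds x₀ hr) ?_ ?_ ?_ ?_ ?_ ?_
  · have h2 := key.differentiableAt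
    rcases le_total α β with h | h
    · simp only [intervalIntegral.integral_of_le h]
      rw [Set.uIoc_of_le h] at h2
      exact h2
    · simp only [intervalIntegral.integral_of_ge h]
      rw [Set.uIoc_of_ge h] at h2
      exact h2.neg
  · filter_upwards [ball_mem_nhds x₀ hr] with x hx
    apply ContinuousOn.aestronglyMeasurable _ measurableSet_uIoc
    refine hψ.continuousOn.mul ?_
    refine hGd.continuousOn.comp (by fun_prop) fun s hs => ?_
    exact ⟨hrU (ball_subset_closedBall (ball_subset_ball (by linarith) hx)),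
      hKV ⟨s, hΙ s hs, rfl⟩⟩
  · have hc : ContinuousOn (fun s => ψ s * G (x₀, γ s)) (uIcc α β) := by
      refine hψ.continuousOn.mul ?_
      refine hGd.continuousOn.comp (by fun_prop) fun s hs => ?_
      exact ⟨hx₀, hKV ⟨s, hs, rfl⟩⟩
    have := hc.intervalIntegrable (μ := MeasureTheory.volume)
    rw [intervalIntegrable_iff] at this
    exact this
  · apply ContinuousOn.aestronglyMeasurable _ measurableSet_uIoc
    refine hψ.continuousOn.smul ?_
    have h1 : ContinuousOn (fun s : ℝ => fderiv ℂ G (x₀, γ s)) (Set.uIoc α β) := by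
      refine hcontD.comp (by fun_prop) fun s hs => ?_
      exact ⟨hx₀, hKV ⟨s, hΙ s hs, rfl⟩⟩
    exact h1.clm_comp continuousOn_const
  · rw [MeasureTheory.ae_restrict_iff' measurableSet_uIoc]
    refine Eventually.of_forall fun s hs x hx => ?_
    rw [norm_smul]
    have h1 := hCψ s (hΙ s hs)
    have h2 := hbound x hx (γ s) ⟨s, hΙ s hs, rfl⟩
    have h3 : 0 ≤ C / r := (norm_nonneg _).trans h2
    exact mul_le_mul h1 h2 (norm_nonneg _) ((norm_nonneg _).trans h1)
  · rcases le_total α β with h | h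
    · rw [Set.uIoc_of_le h]
      exact MeasureTheory.integrable_const _
    · rw [Set.uIoc_of_ge h]
      exact MeasureTheory.integrable_const _
  · rw [MeasureTheory.ae_restrict_iff' measurableSet_uIoc]
    refine Eventually.of_forall fun s hs x hx => ?_
    have := (hdG x (ball_subset_ball (by linarith) hx) (γ s) ⟨s, hΙ s hs, rfl⟩).const_smul (ψ s)
    exact this

end Vale.Agent.P097.H543
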