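import Vale.Agent.P097.H543.ParamInt

/-! # P097 / E-HARTOGS, part 1: periodic Cauchy kernel, Cauchy formula on a strip -/

set_option linter.all false

open scoped ComplexConjugate Topology
open Filter Metric Set Complex

namespace Vale.Agent.P097.H543

/-- `e^{2 π i u}` -/
noncomputable def ee (u : ℂ) : ℂ := Complex.exp (2 * Real.pi * I * u)

theorem ee_add_one (u : ℂ) : ee (u + 1) = ee u := by
  unfold ee
  rw [mul_add, mul_one, Complex.exp_add, Complex.exp_two_pi_mul_I, mul_one]

theorem ee_zero : ee 0 = 1 := by simp [ee]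

theorem norm_ee (u : ℂ) : ‖ee u‖ = Real.exp (-(2 * Real.pi * u.im)) := by
  unfold ee
  rw [Complex.norm_exp]
  congr 1
  simp

theorem ee_ne_zero (u : ℂ) : ee u ≠ 0 := Complex.exp_ne_zero _

theorem hasDerivAt_ee (u : ℂ) : HasDerivAt ee (2 * Real.pi * I * ee u) u := by
  have h1 : HasDerivAt (fun u : ℂ => 2 * Real.pi * I * u) (2 * Real.pi * I) u := by
    simpa using (hasDerivAt_id u).const_mul (2 * Real.pi * I : ℂ)
  have h2 := h1.cexp
  rw [mul_comm (Complex.exp _)] at h2
  exact h2

theorem differentiable_ee : Differentiable ℂ ee := fun u => (hasDerivAt_ee u).differentiableAt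

theorem ee_eq_one_iff (u : ℂ) : ee u = 1 ↔ ∃ n : ℤ, u = n := by
  unfold ee
  rw [Complex.exp_eq_one_iff]
  constructor
  · rintro ⟨n, hn⟩
    refine ⟨n, ?_⟩
    have h2 : (2 * Real.pi * I : ℂ) ≠ 0 := Complex.two_pi_I_ne_zero
    apply mul_left_cancel₀ h2
    rw [hn]; ring
  · rintro ⟨n, rfl⟩
    exact ⟨n, by ring⟩

theorem ee_ne_one_of_im {u : ℂ} (h : u.im ≠ 0) : ee u ≠ 1 := by
  intro h1
  obtain ⟨n, hn⟩ := (ee_eq_one_iff u).1 h1
  apply h
  rw [hn]; simp

theorem norm_ee_lt_one {u : ℂ} (h : 0 < u.im) : ‖ee u‖ < 1 := by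
  rw [norm_ee, Real.exp_lt_one_iff]
  have := Real.pi_pos
  nlinarith [mul_pos this h]

/-- periodic Cauchy kernel: simple poles at the integers with residue `1 / (2 π i)` -/
noncomputable def ker (u : ℂ) : ℂ := (ee u - 1)⁻¹

theorem ker_add_one (u : ℂ) : ker (u + 1) = ker u := by simp [ker, ee_add_one]

theorem differentiableAt_ker {u : ℂ} (h : ee u ≠ 1) : DifferentiableAt ℂ ker u := by
  unfold ker
  apply DifferentiableAt.inv
  · exact (differentiable_ee u).sub_const 1
  · exact sub_ne_zero.2 h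

theorem differentiableOn_ker : DifferentiableOn ℂ ker {u | ee u ≠ 1} :=
  fun _ hu => (differentiableAt_ker hu).differentiableWithinAt

theorem isOpen_ee_ne : IsOpen {u : ℂ | ee u ≠ 1} :=
  isOpen_ne_fun differentiable_ee.continuous continuous_const

theorem ker_ne {u : ℂ} (h : u.im ≠ 0) : u ∈ {u : ℂ | ee u ≠ 1} := ee_ne_one_of_im h

/-- horizontal integrals of a periodic holomorphic function do not depend on the height -/
theorem integral_line_eq {g : ℂ → ℂ} {y₁ y₂ : ℝ} (hg : DifferentiableOn ℂ g {z | z.im ∈ uIcc y₁ y₂})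
    (hp : ∀ z : ℂ, z.im ∈ uIcc y₁ y₂ → g (z + 1) = g z) (x₀ : ℝ) :
    ∫ x in x₀..x₀ + 1, g (x + y₁ * I) = ∫ x in x₀..x₀ + 1, g (x + y₂ * I) := by
  have h := Complex.integral_boundary_rect_eq_zero_of_differentiableOn g (x₀ + y₁ * I)
    ((x₀ + 1 : ℝ) + y₂ * I) (by
      apply hg.mono
      intro z hz
      rw [mem_reProdIm] at hz
      simpa using hz.2)
  simp only [add_re, ofReal_re, mul_re, I_re, mul_zero, ofReal_im, I_im, mul_one, sub_self, add_zero,
    add_im, mul_im, zero_add] at h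
  have hside : ∫ y in y₁..y₂, g ((x₀ + 1 : ℝ) + y * I) = ∫ y in y₁..y₂, g (x₀ + y * I) := by
    apply intervalIntegral.integral_congr
    intro y hy
    simp only
    have : ((x₀ + 1 : ℝ) + y * I : ℂ) = (x₀ + y * I) + 1 := by push_cast; ring
    rw [this]
    apply hp
    simpa using hy
  rw [hside] at h
  linear_combination h

/-- integral of the kernel above the pole -/
theorem integral_ker_above {t : ℂ} {y : ℝ} (h : t.im < y) (x₀ : ℝ) :
    ∫ x in x₀..x₀ + 1, ker (x + y * I - t) = -1 := by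
  have h2 : (2 * Real.pi * I : ℂ) ≠ 0 := Complex.two_pi_I_ne_zero
  have him : ∀ x : ℝ, (x + y * I - t : ℂ).im = y - t.im := by intro x; simp
  have hpos : ∀ x : ℝ, 0 < (x + y * I - t : ℂ).im := by intro x; rw [him]; linarith
  have hder : ∀ x : ℝ, HasDerivAt (fun x : ℝ => -(x + y * I - t : ℂ) +
      (2 * Real.pi * I)⁻¹ * Complex.log (1 - ee (x + y * I - t))) (ker (x + y * I - t)) x := by
    intro x
    have hq : ‖ee (x + y * I - t)‖ < 1 := norm_ee_lt_one (hpos x)
    have hs : 1 - ee (x + y * I - t) ∈ slitPlane := by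
      left
      have := Complex.re_le_norm (ee (x + y * I - t))
      simp only [sub_re, one_re]
      linarith
    have e1 : HasDerivAt (fun z : ℂ => (z + y * I - t : ℂ)) 1 (x : ℂ) := by
      simpa using ((hasDerivAt_id (x : ℂ)).add_const (y * I)).sub_const t
    have e2 : HasDerivAt (fun z : ℂ => 1 - ee (z + y * I - t))
        (-(2 * Real.pi * I * ee (x + y * I - t))) (x : ℂ) := by
      have := ((hasDerivAt_ee (x + y * I - t)).comp (x : ℂ) e1).const_sub 1
      simpa using this
    have e3 : HasDerivAt (fun z : ℂ => -(z + y * I - t : ℂ) +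
      (2 * Real.pi * I)⁻¹ * Complex.log (1 - ee (z + y * I - t)))
        (-1 + (2 * Real.pi * I)⁻¹ * (-(2 * Real.pi * I * ee (x + y * I - t)) /
          (1 - ee (x + y * I - t)))) (x : ℂ) :=
      e1.neg.add ((e2.clog hs).const_mul _)
    have e4 := e3.comp_ofReal
    convert e4 using 1
    have h3 : 1 - ee (x + y * I - t) ≠ 0 := slitPlane_ne_zero hs
    have h4 : ee (x + y * I - t) - 1 ≠ 0 := by
      intro h; apply h3; linear_combination -h
    unfold ker
    field_simp
    ring
  rw [intervalIntegral.integral_eq_sub_of_hasDerivAt (fun x _ => hder x)]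
  · have h5 : ee ((x₀ + 1 : ℝ) + y * I - t) = ee (x₀ + y * I - t) := by
      rw [← ee_add_one (x₀ + y * I - t)]
      congr 1; push_cast; ring
    rw [h5]; push_cast; ring
  · apply ContinuousOn.intervalIntegrable
    intro x _
    apply ContinuousAt.continuousWithinAt
    have := (differentiableAt_ker (ee_ne_one_of_im (hpos x).ne')).continuousAt
    refine ContinuousAt.comp (f := fun x : ℝ => (x + y * I - t : ℂ)) this ?_
    fun_prop

/-- integral of the kernel below the pole -/
theorem integral_ker_below {t : ℂ} {y : ℝ} (h : y < t.im) (x₀ : ℝ) :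
    ∫ x in x₀..x₀ + 1, ker (x + y * I - t) = 0 := by
  have h2 : (2 * Real.pi * I : ℂ) ≠ 0 := Complex.two_pi_I_ne_zero
  have him : ∀ x : ℝ, (x + y * I - t : ℂ).im = y - t.im := by intro x; simp
  have hpos : ∀ x : ℝ, (x + y * I - t : ℂ).im < 0 := by intro x; rw [him]; linarith
  have hder : ∀ x : ℝ, HasDerivAt (fun x : ℝ =>
      (2 * Real.pi * I)⁻¹ * Complex.log (1 - ee (-(x + y * I - t)))) (ker (x + y * I - t)) x := by
    intro x
    have hq : ‖ee (-(x + y * I - t))‖ < 1 := norm_ee_lt_one (by rw [neg_im]; linarith [hpos x])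
    have hs : 1 - ee (-(x + y * I - t)) ∈ slitPlane := by
      left
      have := Complex.re_le_norm (ee (-(x + y * I - t)))
      simp only [sub_re, one_re]
      linarith
    have e1 : HasDerivAt (fun z : ℂ => (-(z + y * I - t) : ℂ)) (-1) (x : ℂ) := by
      exact (((hasDerivAt_id (x : ℂ)).add_const (y * I)).sub_const t).neg
    have e2 : HasDerivAt (fun z : ℂ => 1 - ee (-(z + y * I - t)))
        (2 * Real.pi * I * ee (-(x + y * I - t))) (x : ℂ) := by
      have := ((hasDerivAt_ee (-(x + y * I - t))).comp (x : ℂ) e1).const_sub 1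
      simpa using this
    have e3 : HasDerivAt (fun z : ℂ =>
      (2 * Real.pi * I)⁻¹ * Complex.log (1 - ee (-(z + y * I - t))))
        ((2 * Real.pi * I)⁻¹ * ((2 * Real.pi * I * ee (-(x + y * I - t))) /
          (1 - ee (-(x + y * I - t))))) (x : ℂ) :=
      ((e2.clog hs).const_mul _)
    have e4 := e3.comp_ofReal
    convert e4 using 1
    have h3 : 1 - ee (-(x + y * I - t)) ≠ 0 := slitPlane_ne_zero hs
    have h4 : ee (x + y * I - t) - 1 ≠ 0 := sub_ne_zero.2 (ee_ne_one_of_im (hpos x).ne)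
    have h5 : ee (-(x + y * I - t)) = (ee (x + y * I - t))⁻¹ := by
      unfold ee; rw [← Complex.exp_neg]; congr 1; ring
    have h6 := ee_ne_zero (x + y * I - t)
    unfold ker
    rw [h5] at h3 ⊢
    field_simp
  rw [intervalIntegral.integral_eq_sub_of_hasDerivAt (fun x _ => hder x)]
  · have h5 : ee (-((x₀ + 1 : ℝ) + y * I - t)) = ee (-(x₀ + y * I - t)) := by
      rw [← ee_add_one (-((x₀ + 1 : ℝ) + y * I - t))]
      congr 1; push_cast; ring
    rw [h5]; ring
  · apply ContinuousOn.intervalIntegrable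
    intro x _
    apply ContinuousAt.continuousWithinAt
    have := (differentiableAt_ker (ee_ne_one_of_im (hpos x).ne)).continuousAt
    refine ContinuousAt.comp (f := fun x : ℝ => (x + y * I - t : ℂ)) this ?_
    fun_prop

/-- Cauchy formula on a strip, centred period -/
theorem cauchy_strip_aux {g : ℂ → ℂ} {y₁ y₂ : ℝ} (h12 : y₁ ≤ y₂)
    (hg : DifferentiableOn ℂ g {z | y₁ ≤ z.im ∧ z.im ≤ y₂})
    (hp : ∀ z : ℂ, y₁ ≤ z.im → z.im ≤ y₂ → g (z + 1) = g z) {t : ℂ} (h1 : y₁ < t.im)
    (h2 : t.im < y₂) :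
    g t = (∫ x in (t.re - 1 / 2)..(t.re - 1 / 2) + 1, g (x + y₁ * I) * ker (x + y₁ * I - t)) -
      ∫ x in (t.re - 1 / 2)..(t.re - 1 / 2) + 1, g (x + y₂ * I) * ker (x + y₂ * I - t) := by
  set x₀ : ℝ := t.re - 1 / 2 with hx₀
  set h : ℂ → ℂ := fun s => dslope g t s * (dslope ee 0 (s - t))⁻¹ with hh
  have hne : ∀ s : ℂ, s ≠ t → h s = (g s - g t) * ker (s - t) := by
    intro s hs
    have hst : s - t ≠ 0 := sub_ne_zero.2 hs
    simp only [hh]
    rw [dslope_of_ne _ hs, dslope_of_ne _ hst, slope_def_module, slope_def_module, sub_zero, ee_zero]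
    unfold ker
    simp only [smul_eq_mul]
    rw [mul_inv, inv_inv]
    field_simp
  -- holomorphy on the closed rectangle
  have hnhds : {z : ℂ | y₁ ≤ z.im ∧ z.im ≤ y₂} ∈ 𝓝 t := by
    have : {z : ℂ | y₁ < z.im ∧ z.im < y₂} ∈ 𝓝 t :=
      ((isOpen_lt continuous_const Complex.continuous_im).inter
        (isOpen_lt Complex.continuous_im continuous_const)).mem_nhds ⟨h1, h2⟩
    exact mem_of_superset this fun z hz => ⟨hz.1.le, hz.2.le⟩
  have hdg : DifferentiableOn ℂ (dslope g t) {z | y₁ ≤ z.im ∧ z.im ≤ y₂} :=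
    (Complex.differentiableOn_dslope hnhds).2 hg
  have hde : Differentiable ℂ (dslope ee 0) := by
    rw [← differentiableOn_univ]
    exact (Complex.differentiableOn_dslope univ_mem).2 differentiable_ee.differentiableOn
  have hnz : ∀ s : ℂ, |s.re - t.re| ≤ 1 / 2 → dslope ee 0 (s - t) ≠ 0 := by
    intro s hs
    rcases eq_or_ne s t with rfl | hne'
    · rw [sub_self, dslope_same, (hasDerivAt_ee 0).deriv, ee_zero, mul_one]
      exact Complex.two_pi_I_ne_zero
    · have hst : s - t ≠ 0 := sub_ne_zero.2 hne'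
      rw [dslope_of_ne _ hst, slope_def_module, sub_zero, ee_zero, smul_ne_zero_iff]
      refine ⟨inv_ne_zero hst, sub_ne_zero.2 ?_⟩
      intro h1
      obtain ⟨n, hn⟩ := (ee_eq_one_iff _).1 h1
      have hre : s.re - t.re = n := by
        have := congrArg Complex.re hn
        simpa using this
      rw [hre] at hs
      have hn0 : n = 0 := by
        have h3 : |(n : ℝ)| < 1 := lt_of_le_of_lt hs (by norm_num)
        have h4 : |n| < 1 := by exact_mod_cast h3
        exact Int.abs_lt_one_iff.1 h4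
      rw [hn0] at hn
      exact hst (by simpa using hn)
  have hd : DifferentiableOn ℂ h (uIcc x₀ (x₀ + 1) ×ℂ uIcc y₁ y₂) := by
    intro s hs
    rw [mem_reProdIm, uIcc_of_le (by linarith), uIcc_of_le h12] at hs
    obtain ⟨hs1, hs2⟩ := hs
    have ha : |s.re - t.re| ≤ 1 / 2 := by
      rw [abs_le]; constructor <;> linarith [hs1.1, hs1.2]
    have hsub : (uIcc x₀ (x₀ + 1) ×ℂ uIcc y₁ y₂) ⊆ {z | y₁ ≤ z.im ∧ z.im ≤ y₂} := by
      intro z hz
      rw [mem_reProdIm, uIcc_of_le (by linarith), uIcc_of_le h12] at hz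
      exact hz.2
    refine ((hdg s hs2).mono hsub).mul ?_
    apply DifferentiableAt.differentiableWithinAt
    apply DifferentiableAt.inv
    · exact DifferentiableAt.comp s (hde _) (differentiableAt_id.sub_const t)
    · exact hnz s ha
  have hrect := Complex.integral_boundary_rect_eq_zero_of_differentiableOn h (x₀ + y₁ * I)
    ((x₀ + 1 : ℝ) + y₂ * I) (by simpa using hd)
  simp only [add_re, ofReal_re, mul_re, I_re, mul_zero, ofReal_im, I_im, mul_one, sub_self, add_zero,
    add_im, mul_im, zero_add] at hrect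
  have hside : ∫ y in y₁..y₂, h ((x₀ + 1 : ℝ) + y * I) = ∫ y in y₁..y₂, h (x₀ + y * I) := by
    apply intervalIntegral.integral_congr
    intro y hy
    rw [uIcc_of_le h12] at hy
    simp only
    have hs : ((x₀ + 1 : ℝ) + y * I : ℂ) = (x₀ + y * I) + 1 := by push_cast; ring
    have hn1 : (x₀ + y * I : ℂ) ≠ t := by
      intro hc
      have := congrArg Complex.re hc
      simp [hx₀] at this
    have hn2 : (x₀ + y * I : ℂ) + 1 ≠ t := by
      intro hc
      have := congrArg Complex.re hc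
      simp [hx₀] at this
      linarith
    rw [hs, hne _ hn1, hne _ hn2, hp _ (by simpa using hy.1) (by simpa using hy.2)]
    congr 1
    rw [show (x₀ + y * I : ℂ) + 1 - t = (x₀ + y * I - t) + 1 by ring, ker_add_one]
  rw [hside] at hrect
  have hline : ∀ y : ℝ, y ≠ t.im → ∫ x in x₀..x₀ + 1, h (x + y * I) =
      ∫ x in x₀..x₀ + 1, (g (x + y * I) - g t) * ker (x + y * I - t) := by
    intro y hy
    apply intervalIntegral.integral_congr
    intro x _
    simp only
    apply hne
    intro hc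
    apply hy
    have := congrArg Complex.im hc
    simpa using this
  have hkc : ∀ y : ℝ, y ≠ t.im → Continuous fun x : ℝ => ker (x + y * I - t) := by
    intro y hy
    rw [continuous_iff_continuousAt]
    intro x
    have hi : (x + y * I - t : ℂ).im ≠ 0 := by simpa [sub_eq_zero] using hy
    have := (differentiableAt_ker (ee_ne_one_of_im hi)).continuousAt
    refine ContinuousAt.comp (f := fun x : ℝ => (x + y * I - t : ℂ)) this ?_
    fun_prop
  have hgc : ∀ y : ℝ, y₁ ≤ y → y ≤ y₂ → Continuous fun x : ℝ => g (x + y * I) := by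
    intro y hy1 hy2
    rw [← continuousOn_univ]
    refine hg.continuousOn.comp (by fun_prop) fun x _ => ?_
    simp only [mem_setOf_eq, add_im, ofReal_im, mul_im, ofReal_re, I_im, mul_one, I_re, mul_zero,
      add_zero, zero_add]
    exact ⟨hy1, hy2⟩
  have hsplit : ∀ y : ℝ, y ≠ t.im → y₁ ≤ y → y ≤ y₂ →
      ∫ x in x₀..x₀ + 1, (g (x + y * I) - g t) * ker (x + y * I - t) =
      (∫ x in x₀..x₀ + 1, g (x + y * I) * ker (x + y * I - t)) -
        g t * ∫ x in x₀..x₀ + 1, ker (x + y * I - t) := by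
    intro y hy hy1 hy2
    rw [← intervalIntegral.integral_const_mul, ← intervalIntegral.integral_sub]
    · congr 1; ext x; ring
    · exact ((hgc y hy1 hy2).mul (hkc y hy)).intervalIntegrable _ _
    · exact (continuous_const.mul (hkc y hy)).intervalIntegrable _ _
  rw [hline y₁ h1.ne, hline y₂ h2.ne', hsplit y₁ h1.ne le_rfl h12, hsplit y₂ h2.ne' h12 le_rfl,
    integral_ker_below h1, integral_ker_above h2] at hrect
  linear_combination -hrect

/-- Cauchy formula on a strip -/
theorem cauchy_strip {g : ℂ → ℂ} {y₁ y₂ : ℝ}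
    (hg : DifferentiableOn ℂ g {z | y₁ ≤ z.im ∧ z.im ≤ y₂})
    (hp : ∀ z : ℂ, y₁ ≤ z.im → z.im ≤ y₂ → g (z + 1) = g z) {t : ℂ} (h1 : y₁ < t.im)
    (h2 : t.im < y₂) (x₀ : ℝ) :
    g t = (∫ x in x₀..x₀ + 1, g (x + y₁ * I) * ker (x + y₁ * I - t)) -
      ∫ x in x₀..x₀ + 1, g (x + y₂ * I) * ker (x + y₂ * I - t) := by
  have h12 : y₁ ≤ y₂ := (h1.trans h2).le
  have hper : ∀ y : ℝ, y₁ ≤ y → y ≤ y₂ →
      Function.Periodic (fun x : ℝ => g (x + y * I) * ker (x + y * I - t)) 1 := by
    intro y hy1 hy2 x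
    simp only
    have e1 : ((x + 1 : ℝ) + y * I : ℂ) = (x + y * I) + 1 := by push_cast; ring
    rw [e1, hp _ (by simpa using hy1) (by simpa using hy2),
      show (x + y * I : ℂ) + 1 - t = (x + y * I - t) + 1 by ring, ker_add_one]
  have := cauchy_strip_aux h12 hg hp h1 h2
  rw [this, (hper y₁ le_rfl h12).intervalIntegral_add_eq (t.re - 1 / 2) x₀,
    (hper y₂ h12 le_rfl).intervalIntegral_add_eq (t.re - 1 / 2) x₀]

end Vale.Agent.P097.H543
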